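import Vale.Agent.H90.KTV.Defs

/-!
Ryser connectivity: a margin class of Boolean matrices is connected by row-pair fibres.
Any function that is constant on every row-pair fibre `RelP i j` is constant on every
margin class `SameMarg`.
-/

namespace Vale.Agent.H3

open Vale.Agent.H90 Finset

section

variable {R C : Type*} [Fintype R] [DecidableEq R] [Fintype C] [DecidableEq C]

/-- The set of cells where two matrices differ. -/
def diffSet (G H : R → C → Bool) : Finset (R × C) :=
  univ.filter (fun p : R × C => G p.1 p.2 ≠ H p.1 p.2)

theorem mem_diffSet (G H : R → C → Bool) (p : R × C) :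
    p ∈ diffSet G H ↔ G p.1 p.2 ≠ H p.1 p.2 := by
  simp [diffSet]

theorem diffSet_comm (G H : R → C → Bool) : diffSet G H = diffSet H G := by
  ext p
  rw [mem_diffSet, mem_diffSet]
  exact ne_comm

theorem diffSet_eq_empty_iff (G H : R → C → Bool) : diffSet G H = ∅ ↔ G = H := by
  constructor
  · intro h
    funext i x
    by_contra hne
    have : (i, x) ∈ diffSet G H := by
      rw [mem_diffSet]
      exact hne
    rw [h] at this
    simp at this
  · intro h
    subst h
    ext p
    simp [diffSet]

theorem sameMarg_refl (G : R → C → Bool) : SameMarg G G :=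
  ⟨fun _ => rfl, fun _ => rfl⟩

theorem sameMarg_symm {G H : R → C → Bool} (h : SameMarg G H) : SameMarg H G :=
  ⟨fun i => (h.1 i).symm, fun x => (h.2 x).symm⟩

theorem sameMarg_trans {G H K : R → C → Bool} (h : SameMarg G H) (h' : SameMarg H K) :
    SameMarg G K :=
  ⟨fun i => (h.1 i).trans (h'.1 i), fun x => (h.2 x).trans (h'.2 x)⟩

/-- Row balance: a cell of type (0,1) in a row forces a cell of type (1,0) in the same row. -/
theorem row_balance {G H : R → C → Bool} (h : SameMarg G H) (i : R) (x : C)
    (hG : G i x = false) (hH : H i x = true) :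
    ∃ x', G i x' = true ∧ H i x' = false := by
  by_contra hno
  have hsub : (univ.filter (fun y => G i y = true)) ⊂ (univ.filter (fun y => H i y = true)) := by
    rw [Finset.ssubset_iff_of_subset]
    · refine ⟨x, by simp [hH], by simp [hG]⟩
    · intro y hy
      rw [Finset.mem_filter] at hy ⊢
      refine ⟨hy.1, ?_⟩
      by_contra hHy
      exact hno ⟨y, hy.2, by simpa using hHy⟩
  have hlt := Finset.card_lt_card hsub
  have := h.1 i
  unfold rowSum at this
  omega

/-- Column balance: a cell of type (1,0) in a column forces a cell of type (0,1) in it. -/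
theorem col_balance {G H : R → C → Bool} (h : SameMarg G H) (i : R) (x : C)
    (hG : G i x = true) (hH : H i x = false) :
    ∃ i', G i' x = false ∧ H i' x = true := by
  by_contra hno
  have hsub : (univ.filter (fun k => H k x = true)) ⊂ (univ.filter (fun k => G k x = true)) := by
    rw [Finset.ssubset_iff_of_subset]
    · refine ⟨i, by simp [hG], by simp [hH]⟩
    · intro k hk
      rw [Finset.mem_filter] at hk ⊢
      refine ⟨hk.1, ?_⟩
      by_contra hGk
      exact hno ⟨k, by simpa using hGk, hk.2⟩
  have hlt := Finset.card_lt_card hsub
  have := h.2 x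
  unfold colSum at this
  omega

theorem colSwap_apply_of_notMem (S : Finset R) (x y : C) (G : R → C → Bool) (a : R) (b : C)
    (ha : a ∉ S) : colSwap S x y G a b = G a b := by
  simp [colSwap, ha]

theorem colSwap_apply_of_mem (S : Finset R) (x y : C) (G : R → C → Bool) (a : R) (b : C)
    (ha : a ∈ S) : colSwap S x y G a b = G a (Equiv.swap x y b) := by
  simp [colSwap, ha]

/-- The switch step: if `G` carries an alternating 2x2 pattern on rows `r1, r2` and
columns `c1, c`, the switched matrix is in the same row-pair fibre. -/
theorem relP_switch (G : R → C → Bool) (r1 r2 : R) (c1 c : C) (a : Bool)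
    (h1 : G r1 c1 = a) (h2 : G r1 c = !a) (h3 : G r2 c1 = !a) (h4 : G r2 c = a) :
    RelP r1 r2 G (colSwap {r1, r2} c1 c G) := by
  refine ⟨?_, ?_, ?_⟩
  · intro k hk1 hk2
    funext b
    rw [colSwap_apply_of_notMem]
    simp [hk1, hk2]
  · -- row sums
    intro i
    unfold rowSum
    by_cases hi : i ∈ ({r1, r2} : Finset R)
    · refine Finset.card_bij' (fun b _ => Equiv.swap c1 c b) (fun b _ => Equiv.swap c1 c b)
        ?_ ?_ ?_ ?_
      · intro b hb
        rw [Finset.mem_filter] at hb ⊢
        refine ⟨mem_univ _, ?_⟩
        rw [colSwap_apply_of_mem _ _ _ _ _ _ hi, Equiv.swap_apply_self]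
        exact hb.2
      · intro b hb
        rw [Finset.mem_filter] at hb ⊢
        refine ⟨mem_univ _, ?_⟩
        have := hb.2
        rw [colSwap_apply_of_mem _ _ _ _ _ _ hi] at this
        exact this
      · intro b _
        exact Equiv.swap_apply_self _ _ _
      · intro b _
        exact Equiv.swap_apply_self _ _ _
    · congr 1
      ext b
      simp only [Finset.mem_filter, mem_univ, true_and]
      rw [colSwap_apply_of_notMem _ _ _ _ _ _ hi]
  · -- column sums
    intro x
    unfold colSum
    have hr : r1 ≠ r2 := by
      intro h
      rw [h] at h1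
      rw [h1] at h3
      cases a <;> simp at h3
    have key : ∀ i, colSwap {r1, r2} c1 c G i x =
        G (if x = c1 ∨ x = c then Equiv.swap r1 r2 i else i) x := by
      intro i
      by_cases hx : x = c1 ∨ x = c
      · rw [if_pos hx]
        by_cases hi1 : i = r1
        · subst hi1
          rw [colSwap_apply_of_mem _ _ _ _ _ _ (by simp), Equiv.swap_apply_left]
          rcases hx with hx | hx
          · subst hx
            rw [Equiv.swap_apply_left, h2, h3]
          · subst hx
            rw [Equiv.swap_apply_right, h1, h4]
        · by_cases hi2 : i = r2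
          · subst hi2
            rw [colSwap_apply_of_mem _ _ _ _ _ _ (by simp), Equiv.swap_apply_right]
            rcases hx with hx | hx
            · subst hx
              rw [Equiv.swap_apply_left, h4, h1]
            · subst hx
              rw [Equiv.swap_apply_right, h3, h2]
          · rw [colSwap_apply_of_notMem _ _ _ _ _ _ (by simp [hi1, hi2]),
              Equiv.swap_apply_of_ne_of_ne hi1 hi2]
      · rw [if_neg hx]
        push Not at hx
        by_cases hi : i ∈ ({r1, r2} : Finset R)
        · rw [colSwap_apply_of_mem _ _ _ _ _ _ hi, Equiv.swap_apply_of_ne_of_ne hx.1 hx.2]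
        · rw [colSwap_apply_of_notMem _ _ _ _ _ _ hi]
    by_cases hx : x = c1 ∨ x = c
    · symm
      refine Finset.card_bij' (fun i _ => Equiv.swap r1 r2 i) (fun i _ => Equiv.swap r1 r2 i)
        ?_ ?_ ?_ ?_
      · intro i hi
        rw [Finset.mem_filter] at hi ⊢
        refine ⟨mem_univ _, ?_⟩
        have := hi.2
        rw [key i, if_pos hx] at this
        exact this
      · intro i hi
        rw [Finset.mem_filter] at hi ⊢
        refine ⟨mem_univ _, ?_⟩
        rw [key _, if_pos hx, Equiv.swap_apply_self]
        exact hi.2
      · intro i _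
        exact Equiv.swap_apply_self _ _ _
      · intro i _
        exact Equiv.swap_apply_self _ _ _
    · congr 1
      ext i
      simp only [Finset.mem_filter, mem_univ, true_and]
      rw [key i, if_neg hx]

/-- The switch step decreases the number of differences with `H` by at least two when `H`
disagrees with `G` on three of the four cells of the alternating pattern. -/
theorem diff_switch (G H : R → C → Bool) (r1 r2 : R) (c1 c : C) (a : Bool)
    (h1 : G r1 c1 = a) (h2 : G r1 c = !a) (h3 : G r2 c1 = !a) (h4 : G r2 c = a)
    (d1 : H r1 c1 = !a) (d2 : H r1 c = a) (d3 : H r2 c = !a) :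
    (diffSet (colSwap {r1, r2} c1 c G) H).card + 2 ≤ (diffSet G H).card := by
  have hr : r1 ≠ r2 := by
    intro h
    rw [h] at h1
    rw [h1] at h3
    cases a <;> simp at h3
  have hc : c1 ≠ c := by
    intro h
    rw [h] at h1
    rw [h1] at h2
    cases a <;> simp at h2
  set G' := colSwap {r1, r2} c1 c G with hG'
  have e11 : G' r1 c1 = !a := by
    rw [hG', colSwap_apply_of_mem _ _ _ _ _ _ (by simp), Equiv.swap_apply_left, h2]
  have e12 : G' r1 c = a := by
    rw [hG', colSwap_apply_of_mem _ _ _ _ _ _ (by simp), Equiv.swap_apply_right, h1]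
  have e22 : G' r2 c = !a := by
    rw [hG', colSwap_apply_of_mem _ _ _ _ _ _ (by simp), Equiv.swap_apply_right, h3]
  have eother : ∀ i x, (i, x) ≠ (r1, c1) → (i, x) ≠ (r1, c) → (i, x) ≠ (r2, c) →
      (i, x) ≠ (r2, c1) → G' i x = G i x := by
    intro i x n1 n2 n3 n4
    by_cases hi : i ∈ ({r1, r2} : Finset R)
    · rw [hG', colSwap_apply_of_mem _ _ _ _ _ _ hi]
      have hx1 : x ≠ c1 := by
        intro hx
        subst hx
        rw [Finset.mem_insert, Finset.mem_singleton] at hi
        rcases hi with hi | hi
        · exact n1 (by rw [hi])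
        · exact n4 (by rw [hi])
      have hx2 : x ≠ c := by
        intro hx
        subst hx
        rw [Finset.mem_insert, Finset.mem_singleton] at hi
        rcases hi with hi | hi
        · exact n2 (by rw [hi])
        · exact n3 (by rw [hi])
      rw [Equiv.swap_apply_of_ne_of_ne hx1 hx2]
    · rw [hG', colSwap_apply_of_notMem _ _ _ _ _ _ hi]
  set T : Finset (R × C) := {(r1, c1), (r1, c), (r2, c)} with hT
  have hTcard : T.card = 3 := by
    rw [hT]
    rw [Finset.card_insert_of_notMem, Finset.card_insert_of_notMem, Finset.card_singleton]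
    · simp [hr]
    · simp [hc]
  have hTsub : T ⊆ diffSet G H := by
    intro p hp
    rw [hT] at hp
    simp only [Finset.mem_insert, Finset.mem_singleton] at hp
    rw [mem_diffSet]
    rcases hp with rfl | rfl | rfl
    · show G r1 c1 ≠ H r1 c1
      rw [h1, d1]
      cases a <;> simp
    · show G r1 c ≠ H r1 c
      rw [h2, d2]
      cases a <;> simp
    · show G r2 c ≠ H r2 c
      rw [h4, d3]
      cases a <;> simp
  have hsub : diffSet G' H ⊆ insert (r2, c1) (diffSet G H \ T) := by
    intro p hp
    rw [mem_diffSet] at hp
    rw [Finset.mem_insert, Finset.mem_sdiff]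
    by_cases hp4 : p = (r2, c1)
    · exact Or.inl hp4
    · right
      have n1 : p ≠ (r1, c1) := by
        rintro rfl
        apply hp
        show G' r1 c1 = H r1 c1
        rw [e11, d1]
      have n2 : p ≠ (r1, c) := by
        rintro rfl
        apply hp
        show G' r1 c = H r1 c
        rw [e12, d2]
      have n3 : p ≠ (r2, c) := by
        rintro rfl
        apply hp
        show G' r2 c = H r2 c
        rw [e22, d3]
      refine ⟨?_, ?_⟩
      · rw [mem_diffSet]
        have := eother p.1 p.2 n1 n2 n3 hp4
        rw [← this]
        exact hp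
      · rw [hT]
        simp only [Finset.mem_insert, Finset.mem_singleton]
        push Not
        exact ⟨n1, n2, n3⟩
  have hcard := Finset.card_le_card hsub
  have h2' : (insert (r2, c1) (diffSet G H \ T)).card ≤ (diffSet G H \ T).card + 1 :=
    Finset.card_insert_le _ _
  have h3' : (diffSet G H \ T).card = (diffSet G H).card - T.card :=
    Finset.card_sdiff_of_subset hTsub
  have h4' : T.card ≤ (diffSet G H).card := Finset.card_le_card hTsub
  omega

/-- Ryser connectivity in invariant form: a function that is constant on all row-pair
fibres is constant on every margin class. -/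
theorem ryser_inv {α : Type*} (f : (R → C → Bool) → α)
    (hf : ∀ i j, i ≠ j → ∀ G H, RelP i j G H → f G = f H) :
    ∀ G H, SameMarg G H → f G = f H := by
  have main : ∀ n : ℕ, ∀ G H : R → C → Bool, SameMarg G H → (diffSet G H).card = n →
      f G = f H := by
    intro n
    induction n using Nat.strong_induction_on with
    | _ n ih =>
      intro G H hGH hn
      by_cases hEq : G = H
      · rw [hEq]
      -- a differing cell
      have hne : (diffSet G H).Nonempty := by
        rw [Finset.nonempty_iff_ne_empty]
        intro h
        exact hEq ((diffSet_eq_empty_iff G H).1 h)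
      obtain ⟨⟨i0, j0⟩, hp0⟩ := hne
      rw [mem_diffSet] at hp0
      -- a cell of type (1,0)
      have hplus : ∃ i x, G i x = true ∧ H i x = false := by
        cases hG0 : G i0 j0 with
        | true =>
          refine ⟨i0, j0, hG0, ?_⟩
          cases hH0 : H i0 j0 with
          | true => exact absurd (by rw [hG0, hH0]) hp0
          | false => rfl
        | false =>
          have hH0 : H i0 j0 = true := by
            cases hH0 : H i0 j0 with
            | true => rfl
            | false => exact absurd (by rw [hG0, hH0]) hp0
          obtain ⟨x', hx'⟩ := row_balance hGH i0 j0 hG0 hH0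
          exact ⟨i0, x', hx'⟩
      obtain ⟨ip, jp, hGp, hHp⟩ := hplus
      -- the column maximizing the number of (1,0) cells
      let Ip : C → Finset R := fun x => univ.filter (fun i => G i x = true ∧ H i x = false)
      obtain ⟨j, -, hjmax⟩ := Finset.exists_max_image (univ : Finset C)
        (fun x => (Ip x).card) ⟨jp, mem_univ _⟩
      have hjpos : 0 < (Ip j).card := by
        have h1 : 0 < (Ip jp).card := by
          rw [Finset.card_pos]
          exact ⟨ip, by simp [Ip, hGp, hHp]⟩
        exact lt_of_lt_of_le h1 (hjmax jp (mem_univ _))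
      obtain ⟨ia, hia⟩ := Finset.card_pos.1 hjpos
      have hia' : G ia j = true ∧ H ia j = false := by
        simpa [Ip] using hia
      obtain ⟨i1, hGi1, hHi1⟩ := col_balance hGH ia j hia'.1 hia'.2
      obtain ⟨j1, hGj1, hHj1⟩ := row_balance hGH i1 j hGi1 hHi1
      -- a row of Ip j that is not in Ip j1
      have hex : ∃ i2, i2 ∈ Ip j ∧ i2 ∉ Ip j1 := by
        by_contra hno
        push Not at hno
        have hsub : Ip j ⊂ Ip j1 := by
          rw [Finset.ssubset_iff_of_subset hno]
          refine ⟨i1, by simp [Ip, hGj1, hHj1], by simp [Ip, hGi1]⟩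
        have := Finset.card_lt_card hsub
        have := hjmax j1 (mem_univ _)
        omega
      obtain ⟨i2, hi2, hi2'⟩ := hex
      have hi2a : G i2 j = true ∧ H i2 j = false := by
        simpa [Ip] using hi2
      have hi2b : ¬ (G i2 j1 = true ∧ H i2 j1 = false) := by
        simpa [Ip] using hi2'
      have hr : i1 ≠ i2 := by
        intro h
        rw [h] at hGi1
        rw [hi2a.1] at hGi1
        simp at hGi1
      cases hG21 : G i2 j1 with
      | false =>
        have hrel := relP_switch G i1 i2 j1 j true hGj1 hGi1 hG21 hi2a.1
        have hdiff := diff_switch G H i1 i2 j1 j true hGj1 hGi1 hG21 hi2a.1 hHj1 hHi1 hi2a.2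
        have hstep : f G = f (colSwap {i1, i2} j1 j G) := hf i1 i2 hr G _ hrel
        have hmarg : SameMarg (colSwap {i1, i2} j1 j G) H :=
          sameMarg_trans (sameMarg_symm hrel.2) hGH
        rw [hstep]
        exact ih _ (by omega) _ _ hmarg rfl
      | true =>
        have hH21 : H i2 j1 = true := by
          cases hH21 : H i2 j1 with
          | true => rfl
          | false => exact absurd ⟨hG21, hH21⟩ hi2b
        have hrel := relP_switch H i1 i2 j1 j false hHj1 hHi1 hH21 hi2a.2
        have hdiff := diff_switch H G i1 i2 j1 j false hHj1 hHi1 hH21 hi2a.2 hGj1 hGi1 hi2a.1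
        have hstep : f H = f (colSwap {i1, i2} j1 j H) := hf i1 i2 hr H _ hrel
        have hmarg : SameMarg (colSwap {i1, i2} j1 j H) G :=
          sameMarg_trans (sameMarg_symm hrel.2) (sameMarg_symm hGH)
        rw [hstep]
        have hcomm : (diffSet H G).card = n := by
          rw [diffSet_comm]
          exact hn
        exact (ih _ (by omega) _ _ hmarg rfl).symm
  intro G H hGH
  exact main _ G H hGH rfl

end

end Vale.Agent.H3
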